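import Vale.Agent.P131.Final

/-- Negative solution of the hyperinvariant subspace problem: on every separable
infinite-dimensional complex Hilbert space there is a nonscalar bounded operator `T` such that
every closed subspace invariant under the whole commutant of `T` is `0` or the whole space. -/
theorem Vale.Agent.Results.P131.NoHyperinvariant.result
    (H : Type*) [NormedAddCommGroup H] [InnerProductSpace ℂ H] [CompleteSpace H]
    [TopologicalSpace.SeparableSpace H] (hH : ¬ FiniteDimensional ℂ H) :
    ∃ T : H →L[ℂ] H, (∀ c : ℂ, T ≠ c • ContinuousLinearMap.id ℂ H) ∧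
      ∀ M : Submodule ℂ H, IsClosed (M : Set H) →
        (∀ A : H →L[ℂ] H, A ∘L T = T ∘L A → ∀ x ∈ M, A x ∈ M) → M = ⊥ ∨ M = ⊤ :=
  Vale.Agent.P131.good_of_separable H hH
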